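import Vale.Agent.H6.Ryser.Thm

namespace Vale.Agent.Results.P045.BoundedDegree

open Finset

/-- `E` is the edge set of an `r`-partite `r`-uniform hypergraph on `V` with parts given by
`part`: every edge contains exactly one vertex of each part. -/
def Partite {V : Type} (r : ℕ) (part : V → Fin r) (E : Finset (Finset V)) : Prop :=
  ∀ e ∈ E, ∀ i : Fin r, ∃! v, v ∈ e ∧ part v = i

/-- The least size of a set of vertices meeting every edge. -/
noncomputable def coveringNumber {V : Type} (E : Finset (Finset V)) : ℕ :=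
  sInf {k | ∃ C : Finset V, (∀ e ∈ E, ∃ v ∈ C, v ∈ e) ∧ C.card = k}

/-- The largest number of pairwise disjoint edges. -/
noncomputable def matchingNumber {V : Type} (E : Finset (Finset V)) : ℕ :=
  sSup {k | ∃ M ⊆ E, (∀ e ∈ M, ∀ f ∈ M, e ≠ f → Disjoint e f) ∧ M.card = k}

/-- Ryser's inequality for hypergraphs of maximum degree at most `2` (`r ≥ 4`), `3` (`r ≥ 5`),
`4` (`r ≥ 8`), `5` (`r ≥ 17`). -/
theorem result (r D : ℕ)
    (hrD : (D = 2 ∧ 4 ≤ r) ∨ (D = 3 ∧ 5 ≤ r) ∨ (D = 4 ∧ 8 ≤ r) ∨ (D = 5 ∧ 17 ≤ r))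
    (V : Type) [Fintype V] [DecidableEq V] (part : V → Fin r) (E : Finset (Finset V))
    (hE : Partite r part E) (hdeg : ∀ v : V, (E.filter (fun e => v ∈ e)).card ≤ D) :
    coveringNumber E ≤ (r - 1) * matchingNumber E := by
  have hbdd : BddAbove {k | ∃ M ⊆ E, (∀ e ∈ M, ∀ f ∈ M, e ≠ f → Disjoint e f) ∧ M.card = k} := by
    refine ⟨E.card, ?_⟩
    rintro k ⟨M, hM, _, rfl⟩
    exact Finset.card_le_card hM
  have hν : ∀ M ⊆ E, (∀ e ∈ M, ∀ f ∈ M, e ≠ f → Disjoint e f) → M.card ≤ matchingNumber E :=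
    fun M hM hd => le_csSup hbdd ⟨M, hM, hd, rfl⟩
  obtain ⟨C, hC, hcard⟩ := Vale.Agent.H6.Ryser.main (r := r) (D := D)
    (by rcases hrD with h | h | h | h <;> omega) (by rcases hrD with h | h | h | h <;> omega)
    (part := part) (E := E) hE hdeg (Vale.Agent.H6.Ryser.numeric r D hrD) (matchingNumber E) hν
  exact le_trans (Nat.sInf_le ⟨C, hC, rfl⟩) hcard

end Vale.Agent.Results.P045.BoundedDegree
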