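import Vale.Agent.H6.Ryser.Near

namespace Vale.Agent.Results.P045.DegreeRange

open Finset

/-- `E` is the edge set of an `r`-partite `r`-uniform hypergraph on `V` with parts given by
`part`: every edge contains exactly one vertex of each part. -/
def Partite {V : Type} (r : ℕ) (part : V → Fin r) (E : Finset (Finset V)) : Prop :=
  ∀ e ∈ E, ∀ i : Fin r, ∃! v, v ∈ e ∧ part v = i

/-- The least size of a set of vertices meeting every edge. -/
noncomputable def coveringNumber {V : Type} (E : Finset (Finset V)) : ℕ :=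
  sInf {k | ∃ C : Finset V, (∀ e ∈ E, ∃ v ∈ C, v ∈ e) ∧ C.card = k}

/-- The largest number of pairwise disjoint edges. -/
noncomputable def matchingNumber {V : Type} (E : Finset (Finset V)) : ℕ :=
  sSup {k | ∃ M ⊆ E, (∀ e ∈ M, ∀ f ∈ M, e ≠ f → Disjoint e f) ∧ M.card = k}

theorem le_matchingNumber {V : Type} (E : Finset (Finset V)) :
    ∀ M ⊆ E, (∀ e ∈ M, ∀ f ∈ M, e ≠ f → Disjoint e f) → M.card ≤ matchingNumber E := by
  have hbdd : BddAbove {k | ∃ M ⊆ E, (∀ e ∈ M, ∀ f ∈ M, e ≠ f → Disjoint e f) ∧ M.card = k} := by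
    refine ⟨E.card, ?_⟩
    rintro k ⟨M, hM, _, rfl⟩
    exact Finset.card_le_card hM
  exact fun M hM hd => le_csSup hbdd ⟨M, hM, hd, rfl⟩

/-- Ryser's inequality (i) for maximum degree at most `2` (`r ≥ 4`), `3` (`r ≥ 5`), `4` (`r ≥ 8`),
`5` (`r ≥ 17`); (ii) for degrees between `a` and `b` when `(a + b - 1)² < 4 a b` and `r` is large;
(iii) an explicit inequality which suffices in (ii). -/
theorem result (r : ℕ) (V : Type) [Fintype V] [DecidableEq V] (part : V → Fin r)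
    (E : Finset (Finset V)) (hE : Partite r part E) :
    (∀ D : ℕ, (D = 2 ∧ 4 ≤ r) ∨ (D = 3 ∧ 5 ≤ r) ∨ (D = 4 ∧ 8 ≤ r) ∨ (D = 5 ∧ 17 ≤ r) →
      (∀ v : V, (E.filter (fun e => v ∈ e)).card ≤ D) →
      coveringNumber E ≤ (r - 1) * matchingNumber E) ∧
    (∀ a b : ℕ, 1 ≤ a → 1 ≤ b → (a + b - 1) ^ 2 < 4 * a * b → 4 * a * b + 2 * (a + b) ≤ r →
      (∀ e ∈ E, ∀ v ∈ e, a ≤ (E.filter (fun f => v ∈ f)).card ∧
        (E.filter (fun f => v ∈ f)).card ≤ b) →
      coveringNumber E ≤ (r - 1) * matchingNumber E) ∧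
    (∀ a b : ℕ, 1 ≤ a → 1 ≤ b → 2 ≤ r →
      (r * (a + b - 1) + 1) ^ 2 ≤ 4 * a * b * (r * (r - 1)) →
      (∀ e ∈ E, ∀ v ∈ e, a ≤ (E.filter (fun f => v ∈ f)).card ∧
        (E.filter (fun f => v ∈ f)).card ≤ b) →
      coveringNumber E ≤ (r - 1) * matchingNumber E) := by
  have key : ∀ a b : ℕ, 1 ≤ a → 1 ≤ b → 2 ≤ r →
      (r * (a + b - 1) + 1) ^ 2 ≤ 4 * a * b * (r * (r - 1)) →
      (∀ e ∈ E, ∀ v ∈ e, a ≤ (E.filter (fun f => v ∈ f)).card ∧
        (E.filter (fun f => v ∈ f)).card ≤ b) →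
      coveringNumber E ≤ (r - 1) * matchingNumber E := by
    intro a b ha hb hr hP hdeg
    have hP' : (r * (a + b - 1) + 1 : ℚ) ^ 2 ≤ 4 * (a * b) * (r * (r - 1)) := by
      have h1 : (((r * (a + b - 1) + 1) ^ 2 : ℕ) : ℚ) ≤ ((4 * a * b * (r * (r - 1)) : ℕ) : ℚ) := by
        exact_mod_cast hP
      push_cast [Nat.cast_sub (by omega : 1 ≤ a + b), Nat.cast_sub (by omega : 1 ≤ r)] at h1
      linarith
    obtain ⟨C, hC, hcard⟩ := Vale.Agent.H6.Ryser.near (r := r) (a := a) (b := b) hr ha hb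
      (part := part) (E := E) hE hdeg hP' (matchingNumber E) (le_matchingNumber E)
    exact le_trans (Nat.sInf_le ⟨C, hC, rfl⟩) hcard
  refine ⟨?_, ?_, key⟩
  · intro D hrD hdeg
    obtain ⟨C, hC, hcard⟩ := Vale.Agent.H6.Ryser.main (r := r) (D := D)
      (by rcases hrD with h | h | h | h <;> omega) (by rcases hrD with h | h | h | h <;> omega)
      (part := part) (E := E) hE hdeg (Vale.Agent.H6.Ryser.numeric r D hrD) (matchingNumber E)
      (le_matchingNumber E)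
    exact le_trans (Nat.sInf_le ⟨C, hC, rfl⟩) hcard
  · intro a b ha hb hab hr hdeg
    refine key a b ha hb (by omega) ?_ hdeg
    obtain ⟨c, hc⟩ : ∃ c, a + b = c + 1 := ⟨a + b - 1, by omega⟩
    obtain ⟨s, rfl⟩ : ∃ s, r = s + 1 := ⟨r - 1, by omega⟩
    rw [hc] at hr hab ⊢
    simp only [Nat.add_sub_cancel] at hab ⊢
    have h1 : c ^ 2 + 1 ≤ 4 * a * b := hab
    have h2 : 4 * a * b + 2 * c + 1 ≤ s := by omega
    nlinarith [Nat.mul_le_mul_left (s + 1) h2, Nat.mul_le_mul_left ((s + 1) * (s + 1)) h1]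

end Vale.Agent.Results.P045.DegreeRange
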