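import Vale.Agent.H6.Ryser.Variance

namespace Vale.Agent.Results.P045.DegreeVariance

open Finset

/-- `E` is the edge set of an `r`-partite `r`-uniform hypergraph on `V` with parts given by
`part`: every edge contains exactly one vertex of each part. -/
def Partite {V : Type} (r : ℕ) (part : V → Fin r) (E : Finset (Finset V)) : Prop :=
  ∀ e ∈ E, ∀ i : Fin r, ∃! v, v ∈ e ∧ part v = i

/-- The number of edges containing `v`. -/
def degree {V : Type} [DecidableEq V] (E : Finset (Finset V)) (v : V) : ℕ :=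
  (E.filter (fun e => v ∈ e)).card

/-- The least size of a set of vertices meeting every edge. -/
noncomputable def coveringNumber {V : Type} (E : Finset (Finset V)) : ℕ :=
  sInf {k | ∃ C : Finset V, (∀ e ∈ E, ∃ v ∈ C, v ∈ e) ∧ C.card = k}

/-- The largest number of pairwise disjoint edges. -/
noncomputable def matchingNumber {V : Type} (E : Finset (Finset V)) : ℕ :=
  sSup {k | ∃ M ⊆ E, (∀ e ∈ M, ∀ f ∈ M, e ≠ f → Disjoint e f) ∧ M.card = k}

theorem le_matchingNumber {V : Type} (E : Finset (Finset V)) :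
    ∀ M ⊆ E, (∀ e ∈ M, ∀ f ∈ M, e ≠ f → Disjoint e f) → M.card ≤ matchingNumber E := by
  have hbdd : BddAbove {k | ∃ M ⊆ E, (∀ e ∈ M, ∀ f ∈ M, e ≠ f → Disjoint e f) ∧ M.card = k} := by
    refine ⟨E.card, ?_⟩
    rintro k ⟨M, hM, _, rfl⟩
    exact Finset.card_le_card hM
  exact fun M hM hd => le_csSup hbdd ⟨M, hM, hd, rfl⟩

/-- Ryser's inequality (i) when the sum of the squares of the degrees is at most
`r (r-1) m² / N + (r-1) m`, where `m` is the number of edges and `N` the number of nonisolated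
vertices; (ii) for maximum degree at most `2` (`r ≥ 4`), `3` (`r ≥ 5`), `4` (`r ≥ 8`),
`5` (`r ≥ 17`). -/
theorem result (r : ℕ) (V : Type) [Fintype V] [DecidableEq V] (part : V → Fin r)
    (E : Finset (Finset V)) (hE : Partite r part E) :
    (2 ≤ r → (univ.filter (fun v => 1 ≤ degree E v)).card * ∑ v, (degree E v) ^ 2
        ≤ r * (r - 1) * E.card ^ 2
          + (r - 1) * E.card * (univ.filter (fun v => 1 ≤ degree E v)).card →
      coveringNumber E ≤ (r - 1) * matchingNumber E) ∧
    (∀ D : ℕ, (D = 2 ∧ 4 ≤ r) ∨ (D = 3 ∧ 5 ≤ r) ∨ (D = 4 ∧ 8 ≤ r) ∨ (D = 5 ∧ 17 ≤ r) →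
      (∀ v : V, degree E v ≤ D) →
      coveringNumber E ≤ (r - 1) * matchingNumber E) := by
  refine ⟨fun hr hP => ?_, ?_⟩
  · obtain ⟨C, hC, hcard⟩ := Vale.Agent.H6.Ryser.variance (r := r) hr
      (part := part) (E := E) hE hP (matchingNumber E) (le_matchingNumber E)
    exact le_trans (Nat.sInf_le ⟨C, hC, rfl⟩) hcard
  · intro D hrD hdeg
    obtain ⟨C, hC, hcard⟩ := Vale.Agent.H6.Ryser.main (r := r) (D := D)
      (by rcases hrD with h | h | h | h <;> omega) (by rcases hrD with h | h | h | h <;> omega)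
      (part := part) (E := E) hE hdeg (Vale.Agent.H6.Ryser.numeric r D hrD) (matchingNumber E)
      (le_matchingNumber E)
    exact le_trans (Nat.sInf_le ⟨C, hC, rfl⟩) hcard

end Vale.Agent.Results.P045.DegreeVariance
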