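import Vale.Agent.H17.RyserDegree

/-!
# Ryser's conjecture for hypergraphs of maximum degree at most four
-/

namespace Vale.Agent.Results.P045.SmallDegree

open Vale.Agent.H17.Ryser

/-- Let `H` be an `r`-partite `r`-uniform hypergraph (parts `part ⁻¹ {i}`) in which every vertex
lies in at most `k` edges and every matching has at most `ν` edges. If `k ≤ 2` and `r ≥ 4`, or
`k ≤ 3` and `r ≥ 7`, or `k ≤ 4` and `r ≥ 44`, then `H` has a vertex cover of size at most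
`(r - 1) * ν`. -/
theorem result (V : Type) [DecidableEq V] (r k ν : ℕ) (H : Finset (Finset V)) (part : V → Fin r)
    (hH : ∀ e ∈ H, ∀ i, ∃! v, v ∈ e ∧ part v = i)
    (hdeg : ∀ v, (H.filter fun e => v ∈ e).card ≤ k)
    (hν : ∀ M ⊆ H, (∀ e ∈ M, ∀ f ∈ M, e ≠ f → Disjoint e f) → M.card ≤ ν)
    (hk : (k ≤ 2 ∧ 4 ≤ r) ∨ (k ≤ 3 ∧ 7 ≤ r) ∨ (k ≤ 4 ∧ 44 ≤ r)) :
    ∃ C : Finset V, (∀ e ∈ H, ∃ v ∈ C, v ∈ e) ∧ C.card ≤ (r - 1) * ν :=
  main part hH hdeg (fun M hM => hν M hM.1 hM.2) hk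

end Vale.Agent.Results.P045.SmallDegree
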